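import Vale.Agent.P218.SymmFlow

/-! Sequences of scales along which every tangent flow is seen, and the zero-one law for the
off-centre density ratios along such sequences. -/

set_option linter.unusedSectionVars false
set_option linter.unusedVariables false

open MeasureTheory Set Filter Topology
open scoped ENNReal NNReal CompactlySupported

namespace Vale.Agent.P218

variable {E : Type*} [NormedAddCommGroup E] [InnerProductSpace ℝ E] [FiniteDimensional ℝ E]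
  [MeasurableSpace E] [BorelSpace E]

/-- measures with the same integrals of `C¹` functions with compact support are equal -/
theorem eq_of_contDiff {κ κ' : Measure E} [IsLocallyFiniteMeasure κ] [IsLocallyFiniteMeasure κ']
    (h1 : ∀ g : E → ℝ, ContDiff ℝ 1 g → HasCompactSupport g → ∫ x, g x ∂κ = ∫ x, g x ∂κ') :
    κ = κ' := by
  refine fnl_injective ?_
  funext φ
  obtain ⟨R, hR⟩ : ∃ R : ℝ, ∀ x, R < ‖x‖ → φ x = 0 := by
    obtain ⟨R, hR⟩ := φ.hasCompactSupport.isCompact.isBounded.subset_closedBall 0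
    refine ⟨R, fun x hx => image_eq_zero_of_notMem_tsupport fun h => ?_⟩
    have := hR h
    rw [mem_closedBall_zero_iff] at this
    linarith
  obtain ⟨C, hC⟩ : ∃ C : ℝ≥0, κ (Metric.closedBall 0 R) ≤ C :=
    ⟨(κ (Metric.closedBall 0 R)).toNNReal,
      (ENNReal.coe_toNNReal (isCompact_closedBall (0 : E) R).measure_lt_top.ne).ge⟩
  obtain ⟨C', hC'⟩ : ∃ C : ℝ≥0, κ' (Metric.closedBall 0 R) ≤ C :=
    ⟨(κ' (Metric.closedBall 0 R)).toNNReal,
      (ENNReal.coe_toNNReal (isCompact_closedBall (0 : E) R).measure_lt_top.ne).ge⟩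
  refine eq_of_forall_dist_le fun ε hε => ?_
  set M : ℝ := ε / (C + C' + 1) with hM
  have hMpos : 0 < M := by positivity
  obtain ⟨g, hg1, hg2, hg3⟩ := φ.continuous.exists_contDiff_approx 1 (ε := fun _ => M)
    continuous_const (fun _ => hMpos)
  have hgR : ∀ x, R < ‖x‖ → g x = 0 := by
    intro x hx
    by_contra hne
    exact hg3 (show x ∈ Function.support g from hne) (hR x hx)
  have hgs : HasCompactSupport g :=
    HasCompactSupport.intro (isCompact_closedBall (0 : E) R) fun x hx => hgR x (by simpa using hx)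
  have happ : ∀ x, ‖x‖ ≤ R → |φ x - g x| ≤ M := fun x _ => by
    rw [abs_sub_comm]
    have := hg2 x
    rw [Real.dist_eq] at this
    exact this.le
  have hφc : Continuous (fun x => φ x) := φ.continuous
  have e1 := abs_integral_sub_le hφc hg1.continuous hR hgR happ hMpos.le hC
  have e2 := abs_integral_sub_le hφc hg1.continuous hR hgR happ hMpos.le hC'
  have e3 := h1 g hg1 hgs
  have e4 : M * C + M * C' ≤ ε := by
    rw [← mul_add, hM, div_mul_eq_mul_div, div_le_iff₀ (by positivity)]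
    nlinarith [C.coe_nonneg, C'.coe_nonneg]
  rw [Real.dist_eq]
  show |∫ x, φ x ∂κ - ∫ x, φ x ∂κ'| ≤ ε
  rw [abs_le] at e1 e2 ⊢
  constructor <;> linarith

theorem exists_index {τ : ℕ → ℝ} (hmono : Monotone τ) (hτ : Tendsto τ atTop atTop) {σ : ℕ → ℝ}
    (hσ : Tendsto σ atTop atTop) : ∃ K : ℕ → ℕ, Tendsto K atTop atTop ∧
      ∀ᶠ i in atTop, τ (K i) ≤ σ i ∧ σ i ≤ τ (K i + 1) := by
  classical
  have hex : ∀ i, ∃ n, σ i < τ n := fun i => (hτ.eventually_gt_atTop (σ i)).exists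
  refine ⟨fun i => Nat.find (hex i) - 1, ?_, ?_⟩
  · refine tendsto_atTop_atTop.2 fun M => ?_
    obtain ⟨i₀, hi₀⟩ := eventually_atTop.1 (hσ.eventually_ge_atTop (τ M))
    refine ⟨i₀, fun i hi => ?_⟩
    have h1 : M < Nat.find (hex i) := by
      rw [Nat.lt_find_iff]
      intro n hn
      exact not_lt.2 ((hmono hn).trans (hi₀ i hi))
    omega
  · filter_upwards [hσ.eventually_ge_atTop (τ 0)] with i hi
    have h1 : 0 < Nat.find (hex i) := by
      rw [Nat.lt_find_iff]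
      intro n hn
      exact not_lt.2 ((hmono hn).trans hi)
    constructor
    · exact not_lt.1 (Nat.find_min (hex i) (m := Nat.find (hex i) - 1) (by omega))
    · have := Nat.find_spec (hex i)
      rw [Nat.sub_add_cancel h1]
      exact this.le

namespace Energy

variable {N : ℝ → Measure E} {D : ℝ → ℝ} {τ₀ C : ℝ}

theorem gap_bound (h : Energy N D τ₀) {τ : ℕ → ℝ} (hτ0 : ∀ k, τ₀ ≤ τ k)
    (hmono : Monotone τ) (hτ : Tendsto τ atTop atTop)
    (hgap : Tendsto (fun k => (τ (k + 1) - τ k) * (D (τ k) - D (τ (k + 1)))) atTop (𝓝 0))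
    {φ : E → ℝ} (hφ : ContDiff ℝ 1 φ) (hφs : HasCompactSupport φ) :
    ∃ b : ℕ → ℝ, Tendsto b atTop (𝓝 0) ∧ ∀ k t, τ k ≤ t → t ≤ τ (k + 1) →
      |∫ x, φ x ∂(N t) - ∫ x, φ x ∂(N (τ k))| ≤ b k := by
  obtain ⟨A, B, hA, hB, hkey⟩ := h.key φ hφ hφs
  have hDlim : Tendsto (fun k => D (τ k) - D (τ (k + 1))) atTop (𝓝 0) := by
    rw [Metric.tendsto_atTop]
    intro ε hε
    obtain ⟨T, hT0, hT⟩ := h.small (half_pos hε)
    obtain ⟨k₀, hk₀⟩ := eventually_atTop.1 (hτ.eventually_ge_atTop T)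
    refine ⟨k₀, fun k hk => ?_⟩
    have h1 := hT (τ k) (τ (k + 1)) (hk₀ k hk) (hmono (Nat.le_succ k))
    have h2 := h.anti (τ k) (τ (k + 1)) (hτ0 k) (hmono (Nat.le_succ k))
    rw [Real.dist_eq, sub_zero, abs_of_nonneg (by linarith)]
    linarith
  refine ⟨fun k => A * (D (τ k) - D (τ (k + 1))) +
    B * √((τ (k + 1) - τ k) * (D (τ k) - D (τ (k + 1)))), ?_, ?_⟩
  · have h1 := hDlim.const_mul A
    have h2 := (hgap.sqrt).const_mul B
    have h3 := h1.add h2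
    simpa using h3
  · intro k t hk4 hj1
    have hDt : D (τ (k + 1)) ≤ D t := h.anti t _ ((hτ0 k).trans hk4) hj1
    have hDk : D t ≤ D (τ k) := h.anti _ t (hτ0 k) hk4
    refine (hkey (τ k) t (hτ0 k) hk4).trans ?_
    have e1 : A * (D (τ k) - D t) ≤ A * (D (τ k) - D (τ (k + 1))) := by gcongr
    have e2 : √((t - τ k) * (D (τ k) - D t)) ≤
        √((τ (k + 1) - τ k) * (D (τ k) - D (τ (k + 1)))) := by
      refine Real.sqrt_le_sqrt ?_
      refine mul_le_mul (by linarith) (by linarith) (by linarith) (by linarith)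
    have e3 := mul_le_mul_of_nonneg_left e2 hB
    linarith

/-- every limit is a limit along a subsequence of a sequence with small gaps -/
theorem exists_subseq_of_gaps (h : Energy N D τ₀) {τ : ℕ → ℝ} (hτ0 : ∀ k, τ₀ ≤ τ k)
    (hmono : Monotone τ) (hτ : Tendsto τ atTop atTop)
    (hgap : Tendsto (fun k => (τ (k + 1) - τ k) * (D (τ k) - D (τ (k + 1)))) atTop (𝓝 0))
    {κ : Measure E} (hκ : κ ∈ limitSet N) :
    ∃ ψ : ℕ → ℕ, Tendsto ψ atTop atTop ∧ WeakTendsto (fun n => N (τ (ψ n))) κ := by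
  obtain ⟨hκl, σ, hσ, hσκ⟩ := hκ
  obtain ⟨K, hK, hKσ⟩ := exists_index hmono hτ hσ
  obtain ⟨κ', ψ, hκ', hψ, hw⟩ := h.slow.exists_subseq (hτ.comp hK)
  refine ⟨fun n => K (ψ n), hK.comp hψ.tendsto_atTop, ?_⟩
  have he : κ = κ' := by
    refine eq_of_contDiff fun g hg hgs => ?_
    obtain ⟨b, hb, hbb⟩ := h.gap_bound hτ0 hmono hτ hgap hg hgs
    have h1 : Tendsto (fun n => ∫ x, g x ∂(N (σ (ψ n)))) atTop (𝓝 (∫ x, g x ∂κ)) :=
      (hσκ g hg.continuous hgs).comp hψ.tendsto_atTop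
    have h2 : Tendsto (fun n => ∫ x, g x ∂(N (τ (K (ψ n))))) atTop (𝓝 (∫ x, g x ∂κ')) :=
      hw g hg.continuous hgs
    have h3 : Tendsto (fun n => b (K (ψ n))) atTop (𝓝 0) :=
      hb.comp (hK.comp hψ.tendsto_atTop)
    have h4 : Tendsto (fun n => ∫ x, g x ∂(N (σ (ψ n))) - ∫ x, g x ∂(N (τ (K (ψ n))))) atTop
        (𝓝 0) := by
      refine squeeze_zero_norm' ?_ h3
      filter_upwards [hψ.tendsto_atTop.eventually hKσ] with n hn
      rw [Real.norm_eq_abs]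
      exact hbb _ _ hn.1 hn.2
    have h5 := tendsto_nhds_unique (h1.sub h2) h4
    linarith
  rw [he]
  exact hw

/-- **Zero-one law along sequences.** If the limit set is not a single measure then, for almost
every centre, all points of a nondegenerate interval are limit points of the Gaussian integrals
along every sequence with small gaps. -/
theorem ae_cluster_seq (h : Energy N D τ₀) (hG : ∀ τ, τ₀ ≤ τ → GB C (N τ))
    (hs : ¬ (limitSet N).Subsingleton) :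
    ∀ᵐ y : E, ∃ a b : ℝ, a < b ∧ ∀ τ : ℕ → ℝ, (∀ k, τ₀ ≤ τ k) → Monotone τ →
      Tendsto τ atTop atTop →
      Tendsto (fun k => (τ (k + 1) - τ k) * (D (τ k) - D (τ (k + 1)))) atTop (𝓝 0) →
      ∀ v ∈ Icc a b, MapClusterPt v atTop fun k => gi (N (τ k)) y := by
  rw [Set.not_subsingleton_iff] at hs
  obtain ⟨κ, hκ, κ', hκ', hne⟩ := hs
  have := hκ.1
  have := hκ'.1
  filter_upwards [gauss_ae_ne (h.slow.GB_limit hG hκ) (h.slow.GB_limit hG hκ') hne] with y hy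
  have hpre := (h.slow.isPreconnected_values hG (weakCont_gi C y)).ordConnected
  have key : ∀ v : ℝ, v ∈ (fun κ => gi κ y) '' limitSet N →
      ∀ τ : ℕ → ℝ, (∀ k, τ₀ ≤ τ k) → Monotone τ → Tendsto τ atTop atTop →
      Tendsto (fun k => (τ (k + 1) - τ k) * (D (τ k) - D (τ (k + 1)))) atTop (𝓝 0) →
      MapClusterPt v atTop fun k => gi (N (τ k)) y := by
    rintro _ ⟨κ₁, hκ₁, rfl⟩ τ hτ0 hmono hτ hgap
    obtain ⟨ψ, hψ, hw⟩ := h.exists_subseq_of_gaps hτ0 hmono hτ hgap hκ₁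
    exact MapClusterPt.of_comp hψ
      (h.slow.tendsto_value hG (weakCont_gi C y) (hτ.comp hψ) hκ₁.1 hw).mapClusterPt
  have hy' : gi κ y ≠ gi κ' y := hy
  rcases lt_or_gt_of_ne hy' with hlt | hlt
  · exact ⟨_, _, hlt, fun τ hτ0 hmono hτ hgap v hv =>
      key v (hpre.out ⟨κ, hκ, rfl⟩ ⟨κ', hκ', rfl⟩ hv) τ hτ0 hmono hτ hgap⟩
  · exact ⟨_, _, hlt, fun τ hτ0 hmono hτ hgap v hv =>
      key v (hpre.out ⟨κ', hκ', rfl⟩ ⟨κ, hκ, rfl⟩ hv) τ hτ0 hmono hτ hgap⟩

end Energy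

/-- `r` is a good sequence of scales for `μ` at `(x₀, t₀)`: `r_k ↓ 0` and
`log (r_k / r_{k+1}) (Θ(r_k) - Θ(r_{k+1})) → 0`, where `Θ(r)` is the Gaussian density ratio at
`(x₀, t₀)` -/
def IsGoodSeq (m : ℕ) (μ : ℝ → Measure E) (x₀ : E) (t₀ : ℝ) (r : ℕ → ℝ) : Prop :=
  IsScaleSeq t₀ r ∧ Tendsto (fun k => Real.log (r k / r (k + 1)) *
    (densityRatio m μ x₀ t₀ (r k) - densityRatio m μ x₀ t₀ (r (k + 1)))) atTop (𝓝 0)

open H552 (BF NN th tau0 gF)

variable {m : ℕ} {μ : ℝ → Measure E} {T : ℝ → E → Submodule ℝ E} {H : ℝ → E → E}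

section
variable (hB : BF m μ T H) (h0 : μ 0 univ < ⊤)
include hB h0

theorem good_gap (x₀ : E) {t₀ : ℝ} {r : ℕ → ℝ} (hr : IsGoodSeq m μ x₀ t₀ r) :
    Tendsto (fun k => (-Real.log (r (k + 1)) - -Real.log (r k)) *
      (th m μ x₀ t₀ (-Real.log (r k)) - th m μ x₀ t₀ (-Real.log (r (k + 1))))) atTop (𝓝 0) := by
  have hs := hr.2
  simp only [drop_eq hB h0 x₀ hr.1] at hs
  have h1 := hs.const_mul (√(4 * Real.pi) ^ m)
  rw [mul_zero] at h1
  refine h1.congr fun k => ?_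
  rw [← mul_assoc, mul_inv_cancel₀ (by positivity), one_mul]

/-- a sequence of scales with bounded quotients is good -/
theorem good_of_bdd (x₀ : E) {t₀ : ℝ} (ht : 0 < t₀) {r : ℕ → ℝ} (hr : IsScaleSeq t₀ r) {q : ℝ}
    (hq : ∀ k, r k ≤ q * r (k + 1)) : IsGoodSeq m μ x₀ t₀ r := by
  refine ⟨hr, ?_⟩
  obtain ⟨l, hl, hl2⟩ := tendsto_center hB h0 x₀ ht
  have hpos : Tendsto r atTop (𝓝[>] 0) :=
    tendsto_nhdsWithin_iff.2 ⟨hr.lim, Eventually.of_forall fun k => hr.pos k⟩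
  have h1 : Tendsto (fun k => densityRatio m μ x₀ t₀ (r k)) atTop (𝓝 l) := hl.comp hpos
  have h2 : Tendsto (fun k => densityRatio m μ x₀ t₀ (r (k + 1))) atTop (𝓝 l) :=
    h1.comp (tendsto_add_atTop_nat 1)
  have h3 : Tendsto (fun k => densityRatio m μ x₀ t₀ (r k) - densityRatio m μ x₀ t₀ (r (k + 1)))
      atTop (𝓝 0) := by simpa using h1.sub h2
  have hq0 : 0 < q := by
    have h4 := hq 0
    have h5 := hr.pos 0
    have h6 := hr.pos 1
    by_contra hcon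
    push Not at hcon
    nlinarith
  have hb : ∀ k, |Real.log (r k / r (k + 1))| ≤ |Real.log q| := by
    intro k
    have h5 : 1 ≤ r k / r (k + 1) := (one_le_div (hr.pos _)).2 (hr.anti (Nat.le_succ k))
    have h6 : r k / r (k + 1) ≤ q := (div_le_iff₀ (hr.pos _)).2 (hq k)
    rw [abs_of_nonneg (Real.log_nonneg h5)]
    exact (Real.log_le_log (by linarith) h6).trans (le_abs_self _)
  have h4 : Tendsto (fun k => |Real.log q| * |densityRatio m μ x₀ t₀ (r k) -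
      densityRatio m μ x₀ t₀ (r (k + 1))|) atTop (𝓝 0) := by
    have := (h3.abs).const_mul |Real.log q|
    simpa using this
  refine squeeze_zero_norm (fun k => ?_) h4
  rw [norm_mul, Real.norm_eq_abs, Real.norm_eq_abs]
  exact mul_le_mul_of_nonneg_right (hb k) (abs_nonneg _)

/-- every tangent flow is seen along every good sequence -/
theorem exists_subseq_good (x₀ : E) {t₀ : ℝ} (ht : 0 < t₀) {r : ℕ → ℝ}
    (hr : IsGoodSeq m μ x₀ t₀ r) {κ : Measure E} (hκ : κ ∈ tangentSlices m μ x₀ t₀) :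
    ∃ ψ : ℕ → ℕ, Tendsto ψ atTop atTop ∧
      WeakTendsto (fun n => rescaled m μ x₀ t₀ (1 / r (ψ n)) (-1)) κ := by
  rw [H552.tangentSlices_eq hB h0 x₀ ht] at hκ
  obtain ⟨ψ, hψ, hw⟩ := (energy_NN hB h0 x₀ ht).exists_subseq_of_gaps hr.1.tau_le hr.1.mono
    hr.1.tendsto (good_gap hB h0 x₀ hr) hκ
  refine ⟨ψ, hψ, ?_⟩
  have : ∀ k, NN m μ x₀ t₀ (-Real.log (r k)) = rescaled m μ x₀ t₀ (1 / r k) (-1) := by
    intro k
    unfold H552.NN
    rw [Real.exp_neg, Real.exp_log (hr.1.pos k), one_div]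
  simpa only [this] using hw

/-- **Zero-one law** for the density ratios. -/
theorem zero_one (x₀ : E) {t₀ : ℝ} (ht : 0 < t₀) :
    (TangentFlowUnique m μ x₀ t₀ ∧ ∀ y : E, ∃ l,
      Tendsto (fun r : ℝ => densityRatio m μ (x₀ + r • y) t₀ r) (𝓝[>] 0) (𝓝 l)) ∨
    (¬ TangentFlowUnique m μ x₀ t₀ ∧ ∀ᵐ y : E, ∃ a b : ℝ, a < b ∧
      ∀ r : ℕ → ℝ, IsGoodSeq m μ x₀ t₀ r → ∀ v ∈ Icc a b,
        MapClusterPt v atTop fun k => densityRatio m μ (x₀ + r k • y) t₀ (r k)) := by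
  obtain ⟨C, hG⟩ := gb_NN hB h0 x₀ ht
  have hE := energy_NN hB h0 x₀ ht
  have hc := cm_pos hB h0 m
  by_cases hU : TangentFlowUnique m μ x₀ t₀
  · left
    refine ⟨hU, fun y => ?_⟩
    rw [unique_iff hB h0 x₀ ht, H552.tangentSlices_eq hB h0 x₀ ht] at hU
    obtain ⟨l, hl⟩ := hE.slow.tendsto_of_subsingleton hG hU (weakCont_gi C y)
    exact ⟨(√(4 * Real.pi) ^ m)⁻¹ * l,
      (tendsto_iff_log _ (fun τ => (√(4 * Real.pi) ^ m)⁻¹ * gi (NN m μ x₀ t₀ τ) y)
        (fun r hr => densityRatio_eq m μ x₀ y t₀ hr) _).2 (hl.const_mul _)⟩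
  · right
    refine ⟨hU, ?_⟩
    rw [unique_iff hB h0 x₀ ht, H552.tangentSlices_eq hB h0 x₀ ht] at hU
    filter_upwards [hE.ae_cluster_seq hG hU] with y ⟨a, b, hab, hy⟩
    refine ⟨(√(4 * Real.pi) ^ m)⁻¹ * a, (√(4 * Real.pi) ^ m)⁻¹ * b,
      mul_lt_mul_of_pos_left hab hc, fun r hr v hv => ?_⟩
    set c : ℝ := (√(4 * Real.pi) ^ m)⁻¹ with hcdef
    have h1 : c⁻¹ * v ∈ Icc a b := by
      constructor
      · rw [inv_mul_eq_div, le_div_iff₀ hc]
        linarith [hv.1]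
      · rw [inv_mul_eq_div, div_le_iff₀ hc]
        linarith [hv.2]
    have h2 := hy _ hr.1.tau_le hr.1.mono hr.1.tendsto (good_gap hB h0 x₀ hr) _ h1
    have h3 := h2.continuousAt_comp (f := fun z : ℝ => c * z) (continuous_const_mul c).continuousAt
    have h4 : c * (c⁻¹ * v) = v := mul_inv_cancel_left₀ hc.ne' v
    rw [h4] at h3
    refine h3.congrFun (Eventually.of_forall fun k => ?_)
    exact (densityRatio_eq m μ x₀ y t₀ (hr.1.pos k)).symm

end

end Vale.Agent.P218
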